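import Vale.Agent.Lib.P166.Basic

/-! # P166: averaging over permutations of a block of eigenvalues. -/

open MeasureTheory Matrix Filter Topology

namespace Vale.Agent.Lib.P166

noncomputable section

lemma sum_perm_apply {α : Type*} [Fintype α] [DecidableEq α] (y : α → ℝ) (i : α) :
    (Fintype.card α : ℝ) * ∑ σ : Equiv.Perm α, y (σ i)
      = (Fintype.card (Equiv.Perm α) : ℝ) * ∑ j, y j := by
  have hconst : ∀ j, ∑ σ : Equiv.Perm α, y (σ j) = ∑ σ : Equiv.Perm α, y (σ i) := by
    intro j
    rw [← Equiv.sum_comp (Equiv.mulRight (Equiv.swap i j))]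
    apply Finset.sum_congr rfl
    intro σ _
    simp
  have h2 : ∑ j, ∑ σ : Equiv.Perm α, y (σ j) = ∑ σ : Equiv.Perm α, ∑ j, y (σ j) :=
    Finset.sum_comm
  have h3 : ∑ σ : Equiv.Perm α, ∑ j, y (σ j) = (Fintype.card (Equiv.Perm α) : ℝ) * ∑ j, y j := by
    simp only [Equiv.sum_comp]
    simp
  have h4 : ∑ j, ∑ σ : Equiv.Perm α, y (σ j)
      = (Fintype.card α : ℝ) * ∑ σ : Equiv.Perm α, y (σ i) := by
    simp only [hconst]
    simp
  rw [← h4, h2, h3]

/-- Replace the values on `S` by their mean. -/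
def avgOn {N : ℕ} (S : Finset (Fin N)) (y : Fin N → ℝ) (i : Fin N) : ℝ :=
  if i ∈ S then (∑ j ∈ S, y j) / (S.card : ℝ) else y i

theorem le_of_avgOn {N : ℕ} (F : (Fin N → ℝ) → ℝ) (hconv : ConvexOn ℝ Set.univ F)
    (hperm : ∀ (π : Equiv.Perm (Fin N)) (y : Fin N → ℝ), F (y ∘ π) = F y)
    (S : Finset (Fin N)) (y : Fin N → ℝ) : F (avgOn S y) ≤ F y := by
  classical
  let G := Equiv.Perm {i // i ∈ S}
  let w : ℝ := ((Fintype.card G : ℕ) : ℝ)⁻¹
  have hGpos : (0 : ℝ) < (Fintype.card G : ℕ) := by exact_mod_cast Fintype.card_pos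
  have hw0 : 0 ≤ w := by positivity
  have hw1 : ∑ _σ : G, w = 1 := by
    simp only [Finset.sum_const, Finset.card_univ, nsmul_eq_mul, w]
    field_simp
  let p : G → (Fin N → ℝ) := fun σ => y ∘ (Equiv.Perm.ofSubtype σ)
  have hrep : avgOn S y = ∑ σ : G, w • p σ := by
    funext i
    simp only [Finset.sum_apply, Pi.smul_apply, smul_eq_mul, avgOn, p, Function.comp]
    by_cases hi : i ∈ S
    · rw [if_pos hi]
      have hval : ∀ σ : G, y (Equiv.Perm.ofSubtype σ i) = (fun j : {i // i ∈ S} => y j) (σ ⟨i, hi⟩) := by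
        intro σ
        simp only
        rw [Equiv.Perm.ofSubtype_apply_of_mem σ hi]
      simp only [hval]
      rw [← Finset.mul_sum]
      have hS : (0 : ℝ) < (S.card : ℝ) := by
        have : 0 < S.card := Finset.card_pos.2 ⟨i, hi⟩
        exact_mod_cast this
      have hkey := sum_perm_apply (fun j : {i // i ∈ S} => y j) ⟨i, hi⟩
      have hc : (Fintype.card {i // i ∈ S} : ℝ) = S.card := by
        simp
      rw [hc] at hkey
      have hsum : ∑ j : {i // i ∈ S}, y j = ∑ j ∈ S, y j := by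
        rw [Finset.sum_coe_sort S y]
      rw [hsum] at hkey
      rw [div_eq_iff hS.ne']
      simp only [w]
      field_simp
      linarith
    · rw [if_neg hi]
      have hval : ∀ σ : G, y (Equiv.Perm.ofSubtype σ i) = y i := by
        intro σ
        rw [Equiv.Perm.ofSubtype_apply_of_not_mem σ hi]
      simp only [hval]
      rw [← Finset.sum_mul, hw1, one_mul]
  rw [hrep]
  have hJ := hconv.map_sum_le (t := Finset.univ) (w := fun _ : G => w) (p := p)
    (fun _ _ => hw0) hw1 (fun _ _ => Set.mem_univ _)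
  refine hJ.trans (le_of_eq ?_)
  simp only [p, hperm, smul_eq_mul]
  rw [← Finset.sum_mul, hw1, one_mul]

/-- The basic comparison. -/
theorem mean_le_of_cover {N : ℕ} (hN : 1 ≤ N) {β : ℝ} (hβ : 0 ≤ β) (a b : Fin N → ℝ) (s A : ℝ)
    (S : Finset (Fin N)) (h1 : ∀ i, i ∉ S → b i ≤ a i + s) (h2 : ∀ i ∈ S, b i ≤ A)
    (h3 : (S.card : ℝ) * A ≤ ∑ j ∈ S, (a j + s)) :
    meanPressure β b ≤ meanPressure β a + β * s / 2 := by
  have hle : ∀ i, b i ≤ avgOn S (fun i => a i + s) i := by
    intro i
    unfold avgOn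
    by_cases hi : i ∈ S
    · rw [if_pos hi]
      have hS : (0 : ℝ) < (S.card : ℝ) := by
        have : 0 < S.card := Finset.card_pos.2 ⟨i, hi⟩
        exact_mod_cast this
      rw [le_div_iff₀ hS]
      have := h2 i hi
      nlinarith
    · rw [if_neg hi]
      exact h1 i hi
  calc meanPressure β b ≤ meanPressure β (avgOn S (fun i => a i + s)) := meanPressure_mono hβ hle
    _ ≤ meanPressure β (fun i => a i + s) :=
        le_of_avgOn _ (meanPressure_convex β) (fun π y => meanPressure_perm β π y) S _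
    _ = meanPressure β a + β * s / 2 := meanPressure_shift hN β a s

/-- Comparison when few entries of `b` exceed those of `a`, and many of `a` are near the top. -/
theorem mean_le_of_window {N : ℕ} (hN : 1 ≤ N) {β : ℝ} (hβ : 0 ≤ β) (a b : Fin N → ℝ)
    (s g M C : ℝ) (hs : 0 ≤ s) (hb : ∀ i, b i ≤ M) (ha : ∀ i, -C ≤ a i) (hMC : 0 ≤ M + C)
    (hcount : (((Finset.univ.filter (fun i => a i + s < b i)).card : ℝ)) * (M + C)
      ≤ ((Finset.univ.filter (fun i => M + g ≤ a i + s)).card : ℝ) * g) :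
    meanPressure β b ≤ meanPressure β a + β * s / 2 := by
  classical
  set B := Finset.univ.filter (fun i => a i + s < b i) with hB
  set T := Finset.univ.filter (fun i => M + g ≤ a i + s) with hT
  apply mean_le_of_cover hN hβ a b s M (T ∪ (B \ T))
  · intro i hi
    have : i ∉ B := by
      intro hiB
      by_cases hiT : i ∈ T
      · exact hi (Finset.mem_union_left _ hiT)
      · exact hi (Finset.mem_union_right _ (Finset.mem_sdiff.2 ⟨hiB, hiT⟩))
    have h2 : ¬ (a i + s < b i) := fun h => this (Finset.mem_filter.2 ⟨Finset.mem_univ _, h⟩)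
    linarith
  · intro i _
    exact hb i
  · have hdisj : Disjoint T (B \ T) := Finset.disjoint_sdiff
    rw [Finset.sum_union hdisj, Finset.card_union_of_disjoint hdisj]
    have hT1 : (T.card : ℝ) * (M + g) ≤ ∑ j ∈ T, (a j + s) := by
      rw [← nsmul_eq_mul]
      apply Finset.card_nsmul_le_sum
      intro j hj
      exact (Finset.mem_filter.1 hj).2
    have hB1 : ((B \ T).card : ℝ) * (-C) ≤ ∑ j ∈ B \ T, (a j + s) := by
      rw [← nsmul_eq_mul]
      apply Finset.card_nsmul_le_sum
      intro j _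
      have := ha j
      linarith
    have hcard : (((B \ T).card : ℕ) : ℝ) ≤ (B.card : ℝ) := by
      exact_mod_cast Finset.card_le_card Finset.sdiff_subset
    have h4 : ((B \ T).card : ℝ) * (M + C) ≤ (T.card : ℝ) * g :=
      (mul_le_mul_of_nonneg_right hcard hMC).trans hcount
    push_cast
    nlinarith

end

end Vale.Agent.Lib.P166
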