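import Vale.Agent.Lib.P166.Defs

/-! # P166: structure of the expected pressure as a function of the eigenvalues. -/

open MeasureTheory Matrix Filter Topology

namespace Vale.Agent.Lib.P166

noncomputable section

/-- The coordinates of `U σ`. -/
def wc {N : ℕ} (U : OG N) (s : Fin N → Bool) (i : Fin N) : ℝ :=
  ((U : Matrix (Fin N) (Fin N) ℝ) *ᵥ spin s) i

lemma energy_eq {N : ℕ} (U : OG N) (lam : Fin N → ℝ) (s : Fin N → Bool) :
    spin s ⬝ᵥ (coupling U lam *ᵥ spin s) = ∑ i, lam i * (wc U s i) ^ 2 := by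
  unfold coupling
  rw [← Matrix.mulVec_mulVec, ← Matrix.mulVec_mulVec, Matrix.dotProduct_mulVec,
    Matrix.vecMul_transpose, dotProduct]
  apply Finset.sum_congr rfl
  intro i _
  unfold wc
  rw [Matrix.mulVec_diagonal]
  ring

lemma spin_sq {N : ℕ} (s : Fin N → Bool) (i : Fin N) : spin s i * spin s i = 1 := by
  unfold spin
  split_ifs <;> norm_num

lemma sum_wc_sq {N : ℕ} (U : OG N) (s : Fin N → Bool) : ∑ i, (wc U s i) ^ 2 = N := by
  have h := (Matrix.mem_orthogonalGroup_iff' (Fin N) ℝ).1 U.2
  have h1 : ∑ i, (wc U s i) ^ 2 = spin s ⬝ᵥ (((U : Matrix (Fin N) (Fin N) ℝ)ᵀ * (U : Matrix (Fin N) (Fin N) ℝ)) *ᵥ spin s) := by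
    rw [← Matrix.mulVec_mulVec, Matrix.dotProduct_mulVec, Matrix.vecMul_transpose, dotProduct]
    apply Finset.sum_congr rfl
    intro i _
    unfold wc
    ring
  rw [h1]
  have h2 : (U : Matrix (Fin N) (Fin N) ℝ)ᵀ * (U : Matrix (Fin N) (Fin N) ℝ) = 1 := h
  rw [h2, Matrix.one_mulVec, dotProduct]
  simp [spin_sq]

/-- The exponential sum. -/
def zsum {N : ℕ} (β : ℝ) (U : OG N) (lam : Fin N → ℝ) : ℝ :=
  ∑ s : Fin N → Bool, Real.exp (β / 2 * ∑ i, lam i * (wc U s i) ^ 2)

lemma zsum_pos {N : ℕ} (β : ℝ) (U : OG N) (lam : Fin N → ℝ) : 0 < zsum β U lam :=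
  Finset.sum_pos (fun _ _ => Real.exp_pos _) Finset.univ_nonempty

lemma pressure_eq {N : ℕ} (β : ℝ) (U : OG N) (lam : Fin N → ℝ) :
    pressure β U lam = (N : ℝ)⁻¹ * (Real.log ((2 : ℝ)⁻¹ ^ N) + Real.log (zsum β U lam)) := by
  unfold pressure
  simp only [energy_eq]
  have h : (∑ s : Fin N → Bool, Real.exp (β / 2 * ∑ i, lam i * (wc U s i) ^ 2)) = zsum β U lam := rfl
  rw [h, Real.log_mul (by positivity) (zsum_pos β U lam).ne']

/-- Continuity in `U`. -/
lemma continuous_wc {N : ℕ} (s : Fin N → Bool) (i : Fin N) : Continuous (fun U : OG N => wc U s i) := by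
  unfold wc Matrix.mulVec dotProduct
  apply continuous_finsetSum
  intro j _
  apply Continuous.mul _ continuous_const
  have h1 : Continuous (fun U : OG N => (U : Matrix (Fin N) (Fin N) ℝ)) := continuous_subtype_val
  exact (continuous_apply j).comp ((continuous_apply i).comp h1)

lemma continuous_zsum {N : ℕ} (β : ℝ) (lam : Fin N → ℝ) : Continuous (fun U : OG N => zsum β U lam) := by
  unfold zsum
  apply continuous_finsetSum
  intro s _
  apply Real.continuous_exp.comp
  apply Continuous.mul continuous_const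
  apply continuous_finsetSum
  intro i _
  exact continuous_const.mul ((continuous_wc s i).pow 2)

lemma continuous_pressure {N : ℕ} (β : ℝ) (lam : Fin N → ℝ) : Continuous (fun U : OG N => pressure β U lam) := by
  simp only [pressure_eq]
  apply Continuous.mul continuous_const
  apply Continuous.add continuous_const
  exact (continuous_zsum β lam).log (fun U => (zsum_pos β U lam).ne')

lemma integrable_pressure {N : ℕ} (β : ℝ) (lam : Fin N → ℝ) :
    Integrable (fun U : OG N => pressure β U lam) (haarO N) :=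
  (continuous_pressure β lam).integrable_of_hasCompactSupport (HasCompactSupport.of_compactSpace _)

/-- Monotonicity in the eigenvalues. -/
lemma pressure_mono {N : ℕ} {β : ℝ} (hβ : 0 ≤ β) (U : OG N) {lam lam' : Fin N → ℝ}
    (h : ∀ i, lam i ≤ lam' i) : pressure β U lam ≤ pressure β U lam' := by
  rw [pressure_eq, pressure_eq]
  apply mul_le_mul_of_nonneg_left _ (by positivity)
  apply add_le_add_right
  apply Real.log_le_log (zsum_pos β U lam)
  apply Finset.sum_le_sum
  intro s _
  apply Real.exp_le_exp.2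
  apply mul_le_mul_of_nonneg_left _ (by positivity)
  apply Finset.sum_le_sum
  intro i _
  exact mul_le_mul_of_nonneg_right (h i) (sq_nonneg _)

theorem meanPressure_mono {N : ℕ} {β : ℝ} (hβ : 0 ≤ β) {lam lam' : Fin N → ℝ}
    (h : ∀ i, lam i ≤ lam' i) : meanPressure β lam ≤ meanPressure β lam' :=
  integral_mono (integrable_pressure β lam) (integrable_pressure β lam')
    (fun U => pressure_mono hβ U h)

/-- Shift by a constant. -/
lemma pressure_shift {N : ℕ} (hN : 1 ≤ N) (β : ℝ) (U : OG N) (lam : Fin N → ℝ) (c : ℝ) :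
    pressure β U (fun i => lam i + c) = pressure β U lam + β * c / 2 := by
  have hN0 : (N : ℝ) ≠ 0 := by
    have : (1 : ℝ) ≤ N := by exact_mod_cast hN
    linarith
  have hz : zsum β U (fun i => lam i + c) = Real.exp (β / 2 * (c * N)) * zsum β U lam := by
    unfold zsum
    rw [Finset.mul_sum]
    apply Finset.sum_congr rfl
    intro s _
    rw [← Real.exp_add]
    congr 1
    have : ∑ i, (lam i + c) * (wc U s i) ^ 2 = ∑ i, lam i * (wc U s i) ^ 2 + c * N := by
      rw [← sum_wc_sq U s, Finset.mul_sum, ← Finset.sum_add_distrib]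
      apply Finset.sum_congr rfl
      intro i _
      ring
    rw [this]
    ring
  rw [pressure_eq, pressure_eq, hz, Real.log_mul (Real.exp_pos _).ne' (zsum_pos β U lam).ne',
    Real.log_exp]
  field_simp
  ring

theorem meanPressure_shift {N : ℕ} (hN : 1 ≤ N) (β : ℝ) (lam : Fin N → ℝ) (c : ℝ) :
    meanPressure β (fun i => lam i + c) = meanPressure β lam + β * c / 2 := by
  unfold meanPressure
  simp only [pressure_shift hN]
  rw [integral_add (integrable_pressure β lam) (integrable_const _)]
  simp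

/-- The permutation group element. -/
def permOG {N : ℕ} (π : Equiv.Perm (Fin N)) : OG N :=
  ⟨π.permMatrix ℝ, by
    rw [Matrix.mem_orthogonalGroup_iff]
    change π.permMatrix ℝ * (π.permMatrix ℝ)ᴴ = 1
    rw [Matrix.conjTranspose_permMatrix, ← Matrix.permMatrix_mul]
    simp⟩

lemma wc_perm {N : ℕ} (π : Equiv.Perm (Fin N)) (U : OG N) (s : Fin N → Bool) (i : Fin N) :
    wc (permOG π * U) s i = wc U s (π i) := by
  unfold wc
  have h : ((permOG π * U : OG N) : Matrix (Fin N) (Fin N) ℝ) =
      π.permMatrix ℝ * (U : Matrix (Fin N) (Fin N) ℝ) := rfl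
  rw [h, ← Matrix.mulVec_mulVec, Matrix.permMatrix_mulVec]
  rfl

lemma pressure_perm {N : ℕ} (β : ℝ) (π : Equiv.Perm (Fin N)) (U : OG N) (lam : Fin N → ℝ) :
    pressure β (permOG π * U) lam = pressure β U (lam ∘ π.symm) := by
  rw [pressure_eq, pressure_eq]
  congr 3
  unfold zsum
  apply Finset.sum_congr rfl
  intro s _
  congr 2
  simp only [wc_perm]
  rw [← Equiv.sum_comp π (fun i => (lam ∘ π.symm) i * (wc U s i) ^ 2)]
  simp

/-- Permutation invariance. -/
theorem meanPressure_perm {N : ℕ} (β : ℝ) (π : Equiv.Perm (Fin N)) (lam : Fin N → ℝ) :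
    meanPressure β (lam ∘ π) = meanPressure β lam := by
  unfold meanPressure
  have h := integral_mul_left_eq_self (μ := haarO N) (fun U : OG N => pressure β U lam) (permOG π.symm)
  rw [← h]
  apply integral_congr_ae
  filter_upwards with U
  rw [pressure_perm]
  simp

/-- Hölder's inequality in logarithmic form. -/
lemma log_sum_exp_convex {ι : Type*} [Fintype ι] [Nonempty ι] (x y : ι → ℝ) {a b : ℝ} (ha : 0 < a) (hb : 0 < b)
    (hab : a + b = 1) :
    Real.log (∑ i, Real.exp (a * x i + b * y i))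
      ≤ a * Real.log (∑ i, Real.exp (x i)) + b * Real.log (∑ i, Real.exp (y i)) := by
  have hp : (1 / a).HolderConjugate (1 / b) := by
    rw [Real.holderConjugate_iff]
    refine ⟨?_, ?_⟩
    · rw [lt_div_iff₀ ha]
      linarith
    · simp only [one_div, inv_inv]
      linarith
  have hX : 0 < ∑ i, Real.exp (x i) := Finset.sum_pos (fun _ _ => Real.exp_pos _) Finset.univ_nonempty
  have hY : 0 < ∑ i, Real.exp (y i) := Finset.sum_pos (fun _ _ => Real.exp_pos _) Finset.univ_nonempty
  have hL : 0 < ∑ i, Real.exp (a * x i + b * y i) :=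
    Finset.sum_pos (fun _ _ => Real.exp_pos _) Finset.univ_nonempty
  have hH := Real.inner_le_Lp_mul_Lq Finset.univ (fun i => Real.exp (a * x i)) (fun i => Real.exp (b * y i)) hp
  have h1 : ∀ i, |Real.exp (a * x i)| ^ (a⁻¹) = Real.exp (x i) := by
    intro i
    rw [abs_of_pos (Real.exp_pos _), ← Real.exp_mul]
    congr 1
    field_simp
  have h2 : ∀ i, |Real.exp (b * y i)| ^ (b⁻¹) = Real.exp (y i) := by
    intro i
    rw [abs_of_pos (Real.exp_pos _), ← Real.exp_mul]
    congr 1
    field_simp
  simp only [one_div, inv_inv] at hH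
  simp only [h1, h2] at hH
  have h3 : ∑ i, Real.exp (a * x i + b * y i) = ∑ i, Real.exp (a * x i) * Real.exp (b * y i) := by
    apply Finset.sum_congr rfl
    intro i _
    rw [Real.exp_add]
  rw [h3]
  have h4 : Real.log (∑ i, Real.exp (a * x i) * Real.exp (b * y i)) ≤
      Real.log ((∑ i, Real.exp (x i)) ^ a * (∑ i, Real.exp (y i)) ^ b) :=
    Real.log_le_log (by rw [← h3]; exact hL) hH
  rw [Real.log_mul (by positivity) (by positivity), Real.log_rpow hX, Real.log_rpow hY] at h4
  exact h4

/-- Convexity of the pressure in the eigenvalue vector. -/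
lemma pressure_convex {N : ℕ} (β : ℝ) (U : OG N) : ConvexOn ℝ Set.univ (fun lam : Fin N → ℝ => pressure β U lam) := by
  refine ⟨convex_univ, ?_⟩
  intro x _ y _ a b ha hb hab
  rcases eq_or_lt_of_le ha with rfl | ha'
  · have : b = 1 := by linarith
    subst this
    simp
  rcases eq_or_lt_of_le hb with rfl | hb'
  · have : a = 1 := by linarith
    subst this
    simp
  simp only [smul_eq_mul, pressure_eq]
  have hN : (0 : ℝ) ≤ (N : ℝ)⁻¹ := by positivity
  have key : Real.log (zsum β U (a • x + b • y)) ≤ a * Real.log (zsum β U x) + b * Real.log (zsum β U y) := by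
    unfold zsum
    have := log_sum_exp_convex (fun s : Fin N → Bool => β / 2 * ∑ i, x i * (wc U s i) ^ 2)
      (fun s => β / 2 * ∑ i, y i * (wc U s i) ^ 2) ha' hb' hab
    refine le_trans (le_of_eq ?_) this
    congr 1
    apply Finset.sum_congr rfl
    intro s _
    congr 1
    simp only [Pi.add_apply, Pi.smul_apply, smul_eq_mul]
    have h5 : ∑ i, (a * x i + b * y i) * (wc U s i) ^ 2
        = a * ∑ i, x i * (wc U s i) ^ 2 + b * ∑ i, y i * (wc U s i) ^ 2 := by
      rw [Finset.mul_sum, Finset.mul_sum, ← Finset.sum_add_distrib]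
      apply Finset.sum_congr rfl
      intro i _
      ring
    rw [h5]
    ring
  have hconst : Real.log ((2 : ℝ)⁻¹ ^ N) = a * Real.log ((2 : ℝ)⁻¹ ^ N) + b * Real.log ((2 : ℝ)⁻¹ ^ N) := by
    rw [← add_mul, hab, one_mul]
  calc (N : ℝ)⁻¹ * (Real.log ((2 : ℝ)⁻¹ ^ N) + Real.log (zsum β U (a • x + b • y)))
      ≤ (N : ℝ)⁻¹ * (Real.log ((2 : ℝ)⁻¹ ^ N) + (a * Real.log (zsum β U x) + b * Real.log (zsum β U y))) :=
        mul_le_mul_of_nonneg_left (by linarith) hN
    _ = _ := by
        nth_rw 1 [hconst]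
        ring

/-- Convexity of the expected pressure. -/
theorem meanPressure_convex {N : ℕ} (β : ℝ) : ConvexOn ℝ Set.univ (fun lam : Fin N → ℝ => meanPressure β lam) := by
  refine ⟨convex_univ, ?_⟩
  intro x _ y _ a b ha hb hab
  simp only [smul_eq_mul]
  unfold meanPressure
  rw [← integral_const_mul, ← integral_const_mul,
    ← integral_add ((integrable_pressure β x).const_mul a) ((integrable_pressure β y).const_mul b)]
  apply integral_mono (integrable_pressure β _)
    (((integrable_pressure β x).const_mul a).add ((integrable_pressure β y).const_mul b))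
  intro U
  exact (pressure_convex β U).2 (Set.mem_univ x) (Set.mem_univ y) ha hb hab

end

end Vale.Agent.Lib.P166
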