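import Mathlib

/-! # P166: the orthogonally invariant Ising model: definitions. -/

open MeasureTheory Matrix Filter Topology

namespace Vale.Agent.Lib.P166

noncomputable section

/-- The orthogonal group `O(N)`. -/
abbrev OG (N : ℕ) : Type := Matrix.orthogonalGroup (Fin N) ℝ

/-- The Borel sigma-algebra on `O(N)`. -/
instance instMeasOG (N : ℕ) : MeasurableSpace (OG N) := borel _

instance instBorelOG (N : ℕ) : BorelSpace (OG N) := ⟨rfl⟩

lemma entry_abs_le {N : ℕ} (U : OG N) (i j : Fin N) : |(U : Matrix (Fin N) (Fin N) ℝ) i j| ≤ 1 := by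
  have h := (Matrix.mem_orthogonalGroup_iff (Fin N) ℝ).1 U.2
  have h2 := congrFun (congrFun h i) i
  simp only [Matrix.mul_apply, Matrix.one_apply_eq] at h2
  have h3 : (U : Matrix (Fin N) (Fin N) ℝ) i j * (U : Matrix (Fin N) (Fin N) ℝ) i j ≤ 1 := by
    rw [← h2]
    exact Finset.single_le_sum (f := fun k => (U : Matrix (Fin N) (Fin N) ℝ) i k * (U : Matrix (Fin N) (Fin N) ℝ) i k)
      (fun k _ => mul_self_nonneg _) (Finset.mem_univ j)
  rw [abs_le]
  constructor <;> nlinarith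

/-- `O(N)` is compact. -/
instance instCompactOG (N : ℕ) : CompactSpace (OG N) := by
  have hcl : IsClosed ((Matrix.orthogonalGroup (Fin N) ℝ : Submonoid _) : Set (Matrix (Fin N) (Fin N) ℝ)) :=
    isClosed_unitary
  have hbd : ((Matrix.orthogonalGroup (Fin N) ℝ : Submonoid _) : Set (Matrix (Fin N) (Fin N) ℝ)) ⊆
      Set.pi Set.univ (fun _ => Set.pi Set.univ (fun _ => Set.Icc (-1 : ℝ) 1)) := by
    intro U hU i _ j _
    exact abs_le.1 (entry_abs_le ⟨U, hU⟩ i j)
  have hcomp : IsCompact (Set.pi Set.univ (fun _ : Fin N => Set.pi Set.univ (fun _ : Fin N => Set.Icc (-1 : ℝ) 1))) :=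
    isCompact_univ_pi (fun _ => isCompact_univ_pi (fun _ => isCompact_Icc))
  exact isCompact_iff_compactSpace.1 (hcomp.of_isClosed_subset hcl hbd)

/-- Haar probability measure on `O(N)`. -/
def haarO (N : ℕ) : Measure (OG N) := Measure.haarMeasure ⊤

/-- The spin vector with entries `±1`. -/
def spin {N : ℕ} (s : Fin N → Bool) : Fin N → ℝ := fun i => if s i then 1 else -1

/-- The coupling matrix `Uᵀ Λ U`. -/
def coupling {N : ℕ} (U : OG N) (lam : Fin N → ℝ) : Matrix (Fin N) (Fin N) ℝ :=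
  (U : Matrix (Fin N) (Fin N) ℝ)ᵀ * Matrix.diagonal lam * (U : Matrix (Fin N) (Fin N) ℝ)

/-- The pressure `P_N(β)` for fixed `U`: `N⁻¹ log (2^{-N} ∑_σ exp (β/2 σᵀ J σ))`. -/
def pressure {N : ℕ} (β : ℝ) (U : OG N) (lam : Fin N → ℝ) : ℝ :=
  (N : ℝ)⁻¹ * Real.log ((2 : ℝ)⁻¹ ^ N * ∑ s : Fin N → Bool,
    Real.exp (β / 2 * (spin s ⬝ᵥ (coupling U lam *ᵥ spin s))))

/-- The expected pressure over Haar distributed `U`. -/
def meanPressure {N : ℕ} (β : ℝ) (lam : Fin N → ℝ) : ℝ :=
  ∫ U, pressure β U lam ∂(haarO N)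

instance instProbHaar (N : ℕ) : IsProbabilityMeasure (haarO N) := by
  refine ⟨?_⟩
  have h := Measure.haarMeasure_self (G := OG N) (K₀ := ⊤)
  simpa [haarO] using h

instance instHaarHaar (N : ℕ) : (haarO N).IsHaarMeasure := by
  unfold haarO
  infer_instance

end

end Vale.Agent.Lib.P166
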