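import Vale.Agent.Lib.P166.Avg

/-! # P166: the expected pressure depends only on the limiting spectral measure and the top edge. -/

open MeasureTheory Matrix Filter Topology

namespace Vale.Agent.Lib.P166

noncomputable section

/-- Continuous cutoff: `1` below `x`, `0` above `x + h`. -/
def cutoffFn (x h t : ℝ) : ℝ := max 0 (min 1 ((x + h - t) / h))

lemma cutoffFn_cont (x h : ℝ) : Continuous (cutoffFn x h) := by
  unfold cutoffFn
  fun_prop

lemma cutoffFn_nonneg (x h t : ℝ) : 0 ≤ cutoffFn x h t := le_max_left _ _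

lemma cutoffFn_le_one (x h t : ℝ) : cutoffFn x h t ≤ 1 :=
  max_le zero_le_one (min_le_left _ _)

lemma cutoffFn_of_le {x h t : ℝ} (hh : 0 < h) (ht : t ≤ x) : cutoffFn x h t = 1 := by
  unfold cutoffFn
  have : 1 ≤ (x + h - t) / h := by
    rw [le_div_iff₀ hh]
    linarith
  rw [min_eq_left this]
  simp

lemma cutoffFn_of_ge {x h t : ℝ} (hh : 0 < h) (ht : x + h ≤ t) : cutoffFn x h t = 0 := by
  unfold cutoffFn
  have : (x + h - t) / h ≤ 0 := div_nonpos_of_nonpos_of_nonneg (by linarith) hh.le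
  apply max_eq_left
  exact (min_le_right _ _).trans this

/-- The cutoff as a bounded continuous function. -/
def cutBCF (x h : ℝ) : BoundedContinuousFunction ℝ ℝ :=
  BoundedContinuousFunction.ofNormedAddCommGroup (cutoffFn x h) (cutoffFn_cont x h) 1 (by
    intro t
    rw [Real.norm_eq_abs, abs_le]
    constructor
    · linarith [cutoffFn_nonneg x h t]
    · exact cutoffFn_le_one x h t)

lemma cutBCF_apply (x h t : ℝ) : cutBCF x h t = cutoffFn x h t := rfl

/-- The complementary cutoff. -/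
def cocutBCF (x h : ℝ) : BoundedContinuousFunction ℝ ℝ :=
  BoundedContinuousFunction.ofNormedAddCommGroup (fun t => 1 - cutoffFn x h t)
    (continuous_const.sub (cutoffFn_cont x h)) 1 (by
    intro t
    rw [Real.norm_eq_abs, abs_le]
    constructor
    · linarith [cutoffFn_le_one x h t]
    · linarith [cutoffFn_nonneg x h t])

lemma cocutBCF_apply (x h t : ℝ) : cocutBCF x h t = 1 - cutoffFn x h t := rfl

/-- The overlap count is bounded by a test function difference. -/
lemma card_band_le {N : ℕ} (a b : Fin N → ℝ) (ha : Monotone a) (hb : Monotone b) (x h : ℝ) (hh : 0 < h) :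
    ((Finset.univ.filter (fun i => a i ≤ x ∧ x + h < b i)).card : ℝ)
      ≤ |∑ k, cutoffFn x h (a k) - ∑ k, cutoffFn x h (b k)| := by
  classical
  set I := Finset.univ.filter (fun i => a i ≤ x ∧ x + h < b i) with hI
  by_cases hne : I.Nonempty
  · obtain ⟨i, hi⟩ := hne
    obtain ⟨-, hi1, hi2⟩ := Finset.mem_filter.1 hi
    set A := Finset.univ.filter (fun k => a k ≤ x) with hA
    set B := Finset.univ.filter (fun k => b k ≤ x + h) with hB
    have hBA : B ⊆ A := by
      intro k hk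
      have hk1 := (Finset.mem_filter.1 hk).2
      have hki : k ≤ i := by
        by_contra hc
        have : i ≤ k := le_of_not_ge hc
        have := hb this
        linarith
      exact Finset.mem_filter.2 ⟨Finset.mem_univ _, (ha hki).trans hi1⟩
    have hIeq : I = A \ B := by
      ext k
      simp only [hI, hA, hB, Finset.mem_filter, Finset.mem_univ, true_and, Finset.mem_sdiff, not_le]
    have hcard : (I.card : ℝ) = (A.card : ℝ) - (B.card : ℝ) := by
      rw [hIeq, Finset.card_sdiff_of_subset hBA]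
      rw [Nat.cast_sub (Finset.card_le_card hBA)]
    have hA1 : (A.card : ℝ) ≤ ∑ k, cutoffFn x h (a k) := by
      calc (A.card : ℝ) = ∑ k ∈ A, cutoffFn x h (a k) := by
            rw [Finset.sum_congr rfl (fun k hk => cutoffFn_of_le hh (Finset.mem_filter.1 hk).2)]
            simp only [Finset.sum_const, nsmul_eq_mul, mul_one]
            rfl
        _ ≤ _ := Finset.sum_le_sum_of_subset_of_nonneg (Finset.subset_univ _)
            (fun k _ _ => cutoffFn_nonneg _ _ _)
    have hB1 : ∑ k, cutoffFn x h (b k) ≤ (B.card : ℝ) := by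
      calc ∑ k, cutoffFn x h (b k) = ∑ k ∈ B, cutoffFn x h (b k) := by
            symm
            apply Finset.sum_subset (Finset.subset_univ _)
            intro k _ hk
            apply cutoffFn_of_ge hh
            have : ¬ b k ≤ x + h := fun hc => hk (Finset.mem_filter.2 ⟨Finset.mem_univ _, hc⟩)
            linarith
        _ ≤ ∑ _k ∈ B, (1 : ℝ) := Finset.sum_le_sum (fun k _ => cutoffFn_le_one _ _ _)
        _ = (B.card : ℝ) := by simp
    rw [hcard]
    exact le_trans (by linarith) (le_abs_self _)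
  · rw [Finset.not_nonempty_iff_eq_empty.1 hne]
    simp

/-- Bound of the exceptional set by test functions along a grid. -/
lemma card_exc_le {N : ℕ} (a b : Fin N → ℝ) (ha : Monotone a) (hb : Monotone b) (C M ε : ℝ) (hε : 0 < ε)
    (r : ℕ) (hr : (M + C) / ε + 1 ≤ r) (hlow : ∀ i, -C ≤ a i) (hup : ∀ i, b i ≤ M + 4 * ε) :
    ((Finset.univ.filter (fun i => a i + 4 * ε < b i)).card : ℝ)
      ≤ ∑ j ∈ Finset.range r, |∑ k, cutoffFn (-C + j * ε) ε (a k) - ∑ k, cutoffFn (-C + j * ε) ε (b k)| := by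
  classical
  have hsub : Finset.univ.filter (fun i => a i + 4 * ε < b i) ⊆
      (Finset.range r).biUnion (fun j : ℕ =>
        Finset.univ.filter (fun i => a i ≤ -C + j * ε ∧ -C + j * ε + ε < b i)) := by
    intro i hi
    have hi2 := (Finset.mem_filter.1 hi).2
    have h0 : 0 ≤ (a i + C) / ε := div_nonneg (by linarith [hlow i]) hε.le
    have h1 : (a i + C) / ε ≤ (⌈(a i + C) / ε⌉₊ : ℝ) := Nat.le_ceil _
    have h2 : (⌈(a i + C) / ε⌉₊ : ℝ) < (a i + C) / ε + 1 := Nat.ceil_lt_add_one h0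
    have h3 : (a i + C) ≤ (⌈(a i + C) / ε⌉₊ : ℝ) * ε := by
      rwa [div_le_iff₀ hε] at h1
    have h4 : (⌈(a i + C) / ε⌉₊ : ℝ) * ε < a i + C + ε := by
      have := mul_lt_mul_of_pos_right h2 hε
      rw [add_mul, div_mul_cancel₀ _ hε.ne'] at this
      linarith
    refine Finset.mem_biUnion.2 ⟨⌈(a i + C) / ε⌉₊, Finset.mem_range.2 ?_, Finset.mem_filter.2 ⟨Finset.mem_univ _, ?_, ?_⟩⟩
    · have h5 : (a i + C) / ε ≤ (M + C) / ε := by
        apply div_le_div_of_nonneg_right _ hε.le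
        have := hup i
        linarith
      have h6 : (⌈(a i + C) / ε⌉₊ : ℝ) < (r : ℝ) := by linarith
      exact_mod_cast h6
    · linarith
    · linarith
  calc ((Finset.univ.filter (fun i => a i + 4 * ε < b i)).card : ℝ)
      ≤ (((Finset.range r).biUnion (fun j : ℕ =>
        Finset.univ.filter (fun i => a i ≤ -C + j * ε ∧ -C + j * ε + ε < b i))).card : ℝ) := by
        exact_mod_cast Finset.card_le_card hsub
    _ ≤ ((∑ j ∈ Finset.range r, (Finset.univ.filter (fun i => a i ≤ -C + j * ε ∧ -C + j * ε + ε < b i)).card : ℕ) : ℝ) := by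
        exact_mod_cast Finset.card_biUnion_le
    _ ≤ _ := by
        push_cast
        exact Finset.sum_le_sum (fun j _ => card_band_le a b ha hb _ _ hε)

/-- Sorting does not change the sums. -/
lemma sum_sort {N : ℕ} (a : Fin N → ℝ) (f : ℝ → ℝ) :
    ∑ k, f ((a ∘ Tuple.sort a) k) = ∑ k, f (a k) :=
  Equiv.sum_comp (Tuple.sort a) (fun k => f (a k))

/-- The one-sided estimate. -/
theorem one_sided {β : ℝ} (hβ : 0 ≤ β) (μ : Measure ℝ) [IsProbabilityMeasure μ] (M : ℝ)
    (hM : ∀ ε > 0, 0 < μ (Set.Ioi (M - ε))) (a b : ∀ N : ℕ, Fin N → ℝ)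
    (ha : ∀ f : BoundedContinuousFunction ℝ ℝ,
      Tendsto (fun N : ℕ => (N : ℝ)⁻¹ * ∑ i, f (a N i)) atTop (𝓝 (∫ x, f x ∂μ)))
    (hb : ∀ f : BoundedContinuousFunction ℝ ℝ,
      Tendsto (fun N : ℕ => (N : ℝ)⁻¹ * ∑ i, f (b N i)) atTop (𝓝 (∫ x, f x ∂μ)))
    (hal : ∃ C : ℝ, ∀ᶠ N in atTop, ∀ i, -C ≤ a N i)
    (hbu : ∀ ε > 0, ∀ᶠ N in atTop, ∀ i, b N i ≤ M + ε) (ε : ℝ) (hε : 0 < ε) :
    ∀ᶠ N in atTop, meanPressure β (b N) ≤ meanPressure β (a N) + β * (8 * ε) / 2 := by
  obtain ⟨C₀, hC₀⟩ := hal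
  -- the lower bound constant, with `M + C ≥ 0`
  set C : ℝ := max C₀ (|M| + 1) with hC
  have hMC : 0 < M + C := by
    have h1 : |M| + 1 ≤ C := le_max_right _ _
    have h2 := neg_abs_le M
    linarith
  have hC1 : ∀ᶠ N in atTop, ∀ i, -C ≤ a N i := by
    filter_upwards [hC₀] with N hN i
    have : C₀ ≤ C := le_max_left _ _
    linarith [hN i]
  -- positivity of the top window
  set δ : ℝ := (μ (Set.Ioi (M - ε))).toReal / 2 with hδ
  have hδ0 : 0 < δ := by
    have h1 := hM ε hε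
    have h2 : μ (Set.Ioi (M - ε)) ≠ ⊤ := measure_ne_top _ _
    have := ENNReal.toReal_pos h1.ne' h2
    rw [hδ]
    linarith
  have hint : 2 * δ ≤ ∫ x, cocutBCF (M - 2 * ε) ε x ∂μ := by
    have h1 : 2 * δ = ∫ x, (Set.Ioi (M - ε)).indicator (fun _ => (1 : ℝ)) x ∂μ := by
      rw [integral_indicator measurableSet_Ioi]
      simp [hδ, Measure.real]
      ring
    rw [h1]
    apply integral_mono_of_nonneg
    · filter_upwards with x
      exact Set.indicator_nonneg (fun _ _ => zero_le_one) x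
    · exact (cocutBCF (M - 2 * ε) ε).integrable μ
    · filter_upwards with x
      by_cases hx : x ∈ Set.Ioi (M - ε)
      · rw [Set.indicator_of_mem hx, cocutBCF_apply, cutoffFn_of_ge hε]
        · simp
        · have : M - ε < x := hx
          linarith
      · rw [Set.indicator_of_notMem hx, cocutBCF_apply]
        linarith [cutoffFn_le_one (M - 2 * ε) ε x]
  have hT1 : ∀ᶠ N : ℕ in atTop, δ ≤ (N : ℝ)⁻¹ * ∑ i, cocutBCF (M - 2 * ε) ε (a N i) := by
    have h1 := ha (cocutBCF (M - 2 * ε) ε)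
    exact h1.eventually_const_le (by linarith)
  -- the grid
  set r : ℕ := ⌈(M + ε + C) / ε⌉₊ + 1 with hr
  have hr1 : (M + ε + C) / ε + 1 ≤ (r : ℝ) := by
    rw [hr]
    push_cast
    linarith [Nat.le_ceil ((M + ε + C) / ε)]
  have hMC' : 0 < M + ε + C := by linarith
  set η : ℝ := δ * ε / ((M + ε + C) * r + 1) with hη
  have hη0 : 0 < η := by positivity
  have hgrid : ∀ j ∈ Finset.range r, ∀ᶠ N : ℕ in atTop,
      |(N : ℝ)⁻¹ * ∑ k, cutoffFn (-C + j * ε) ε (a N k) - (N : ℝ)⁻¹ * ∑ k, cutoffFn (-C + j * ε) ε (b N k)| < η := by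
    intro j _
    have h1 := ha (cutBCF (-C + j * ε) ε)
    have h2 := hb (cutBCF (-C + j * ε) ε)
    have h3 := h1.sub h2
    rw [sub_self] at h3
    have h4 := (Metric.tendsto_nhds.1 h3) η hη0
    filter_upwards [h4] with N hN
    simpa [Real.dist_eq, cutBCF_apply] using hN
  have hgrid' : ∀ᶠ N : ℕ in atTop, ∀ j ∈ Finset.range r,
      |(N : ℝ)⁻¹ * ∑ k, cutoffFn (-C + j * ε) ε (a N k) - (N : ℝ)⁻¹ * ∑ k, cutoffFn (-C + j * ε) ε (b N k)| < η :=
    (Finset.eventually_all _).2 hgrid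
  filter_upwards [hC1, hbu ε hε, hT1, hgrid', eventually_ge_atTop 1] with N hN1 hN2 hN3 hN4 hN5
  have hNpos : (0 : ℝ) < N := by exact_mod_cast hN5
  -- sorted versions
  set a' := a N ∘ Tuple.sort (a N) with ha'
  set b' := b N ∘ Tuple.sort (b N) with hb'
  have ham : Monotone a' := Tuple.monotone_sort (a N)
  have hbm : Monotone b' := Tuple.monotone_sort (b N)
  have hFa : meanPressure β a' = meanPressure β (a N) := meanPressure_perm β _ _
  have hFb : meanPressure β b' = meanPressure β (b N) := meanPressure_perm β _ _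
  rw [← hFa, ← hFb]
  have hlow : ∀ i, -C ≤ a' i := fun i => hN1 _
  have hup : ∀ i, b' i ≤ M + ε := fun i => hN2 _
  have hup4 : ∀ i, b' i ≤ (M + ε) + 4 * ε := fun i => by linarith [hup i]
  -- exceptional set
  have hexc := card_exc_le a' b' ham hbm C (M + ε) ε hε r hr1 hlow hup4
  have hexc2 : ((Finset.univ.filter (fun i => a' i + 4 * ε < b' i)).card : ℝ) ≤ (r : ℝ) * (N * η) := by
    refine hexc.trans ?_
    have : ∀ j ∈ Finset.range r, |∑ k, cutoffFn (-C + j * ε) ε (a' k) - ∑ k, cutoffFn (-C + j * ε) ε (b' k)| ≤ N * η := by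
      intro j hj
      rw [ha', hb', sum_sort, sum_sort]
      have h1 := (hN4 j hj).le
      rw [← mul_sub, abs_mul, abs_of_pos (inv_pos.2 hNpos), inv_mul_le_iff₀ hNpos] at h1
      exact h1
    have h2 := Finset.sum_le_sum this
    simpa using h2
  -- top window
  have htop : (N : ℝ) * δ ≤ ((Finset.univ.filter (fun i => (M + ε) + ε ≤ a' i + 4 * ε)).card : ℝ) := by
    have h1 : (N : ℝ) * δ ≤ ∑ i, cocutBCF (M - 2 * ε) ε (a N i) := by
      rwa [inv_mul_eq_div, le_div_iff₀ hNpos, mul_comm] at hN3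
    have h2 : ∑ i, cocutBCF (M - 2 * ε) ε (a N i) = ∑ i, cocutBCF (M - 2 * ε) ε (a' i) :=
      (sum_sort (a N) (fun t => cocutBCF (M - 2 * ε) ε t)).symm
    refine h1.trans (h2.le.trans ?_)
    calc ∑ i, cocutBCF (M - 2 * ε) ε (a' i)
        ≤ ∑ i ∈ Finset.univ.filter (fun i => (M + ε) + ε ≤ a' i + 4 * ε), (1 : ℝ) +
          ∑ i ∈ (Finset.univ.filter (fun i => (M + ε) + ε ≤ a' i + 4 * ε))ᶜ, (0 : ℝ) := by
          rw [← Finset.sum_add_sum_compl (Finset.univ.filter (fun i => (M + ε) + ε ≤ a' i + 4 * ε))]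
          apply add_le_add
          · apply Finset.sum_le_sum
            intro i _
            rw [cocutBCF_apply]
            linarith [cutoffFn_nonneg (M - 2 * ε) ε (a' i)]
          · apply Finset.sum_le_sum
            intro i hi
            have hi2 : ¬ ((M + ε) + ε ≤ a' i + 4 * ε) := by
              intro hc
              exact (Finset.mem_compl.1 hi) (Finset.mem_filter.2 ⟨Finset.mem_univ _, hc⟩)
            rw [cocutBCF_apply, cutoffFn_of_le hε (by linarith)]
            simp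
      _ = _ := by simp
  -- the conclusion
  have hcount : ((Finset.univ.filter (fun i => a' i + 4 * ε < b' i)).card : ℝ) * ((M + ε) + C)
      ≤ ((Finset.univ.filter (fun i => (M + ε) + ε ≤ a' i + 4 * ε)).card : ℝ) * ε := by
    have h1 : (r : ℝ) * (N * η) * (M + ε + C) ≤ (N : ℝ) * δ * ε := by
      have h2 : ((M + ε + C) * r) * η ≤ δ * ε := by
        rw [hη, mul_div_assoc']
        rw [div_le_iff₀ (by positivity)]
        have : 0 ≤ δ * ε := by positivity
        nlinarith
      nlinarith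
    calc ((Finset.univ.filter (fun i => a' i + 4 * ε < b' i)).card : ℝ) * ((M + ε) + C)
        ≤ (r : ℝ) * (N * η) * (M + ε + C) := mul_le_mul_of_nonneg_right hexc2 hMC'.le
      _ ≤ (N : ℝ) * δ * ε := h1
      _ ≤ _ := mul_le_mul_of_nonneg_right htop hε.le
  have := mean_le_of_window hN5 hβ a' b' (4 * ε) ε (M + ε) C (by positivity) hup hlow hMC'.le hcount
  have h8 : β * (4 * ε) / 2 ≤ β * (8 * ε) / 2 := by
    have : 0 ≤ β * ε := by positivity
    nlinarith
  linarith

/-- Universality: two spectral sequences with the same weak limit and the same top edge have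
asymptotically equal expected pressure. -/
theorem universality {β : ℝ} (hβ : 0 ≤ β) (μ : Measure ℝ) [IsProbabilityMeasure μ] (M : ℝ)
    (hM : ∀ ε > 0, 0 < μ (Set.Ioi (M - ε))) (a b : ∀ N : ℕ, Fin N → ℝ)
    (ha : ∀ f : BoundedContinuousFunction ℝ ℝ,
      Tendsto (fun N : ℕ => (N : ℝ)⁻¹ * ∑ i, f (a N i)) atTop (𝓝 (∫ x, f x ∂μ)))
    (hb : ∀ f : BoundedContinuousFunction ℝ ℝ,
      Tendsto (fun N : ℕ => (N : ℝ)⁻¹ * ∑ i, f (b N i)) atTop (𝓝 (∫ x, f x ∂μ)))
    (hau : ∀ ε > 0, ∀ᶠ N in atTop, ∀ i, a N i ≤ M + ε)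
    (hbu : ∀ ε > 0, ∀ᶠ N in atTop, ∀ i, b N i ≤ M + ε)
    (hal : ∃ C : ℝ, ∀ᶠ N in atTop, ∀ i, -C ≤ a N i)
    (hbl : ∃ C : ℝ, ∀ᶠ N in atTop, ∀ i, -C ≤ b N i) :
    Tendsto (fun N : ℕ => meanPressure β (a N) - meanPressure β (b N)) atTop (𝓝 0) := by
  rw [Metric.tendsto_nhds]
  intro ε' hε'
  set ε : ℝ := ε' / (8 * β + 1) with hε
  have hε0 : 0 < ε := by positivity
  have h1 := one_sided hβ μ M hM a b ha hb hal hbu ε hε0
  have h2 := one_sided hβ μ M hM b a hb ha hbl hau ε hε0
  filter_upwards [h1, h2] with N hN1 hN2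
  have h3 : β * (8 * ε) / 2 < ε' := by
    have h4 : (8 * β + 1) * ε = ε' := by
      rw [hε]
      field_simp
    have h5 : 0 ≤ β * ε := by positivity
    nlinarith
  rw [Real.dist_eq, sub_zero, abs_lt]
  constructor <;> linarith

end

end Vale.Agent.Lib.P166
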